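import Vale.Agent.P184.DefsGeom

namespace Vale.Agent.P184

open scoped Pointwise

/-- `g` admits a height function: a real function `h` on `G` whose variation under every left
translation is bounded, on which right translation by any element of the centralizer of `g` acts
as a shift by a constant, and with `h g ≠ h 1`. -/
def HasHeight {G : Type*} [Group G] (g : G) : Prop :=
  ∃ h : G → ℝ, (∀ x, ∃ M, ∀ u, |h (x * u) - h u| ≤ M) ∧
    (∀ z, z * g = g * z → ∀ u v, h (u * z) - h u = h (v * z) - h v) ∧ h g ≠ h 1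

/-- A cusp uniform action (Gromov, Bowditch): `G` acts isometrically and metrically properly on
the hyperbolic space `X` with approximate midpoints, `𝓑` is an invariant, separated, locally
finite family of quasiconvex subsets (the horoballs) with pairwise bounded coarse intersections,
and `X` is the union of a bounded neighbourhood of one orbit and of the members of `𝓑`. -/
structure CuspUniform (G X : Type*) [Group G] [PseudoMetricSpace X] [MulAction G X]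
    (𝓑 : Set (Set X)) (δ μ σ κ R₀ : ℝ) (x₀ : X) : Prop where
  isom : ∀ (a : G) (x y : X), dist (a • x) (a • y) = dist x y
  hyp : ∀ x y z w : X,
    dist x y + dist z w ≤ max (dist x z + dist y w) (dist x w + dist y z) + 2 * δ
  mid : ∀ x y : X, ∃ m : X, dist x m ≤ dist x y / 2 + μ ∧ dist y m ≤ dist x y / 2 + μ
  proper : ∀ R : ℝ, {s : G | dist x₀ (s • x₀) ≤ R}.Finite
  inv : ∀ (a : G), ∀ B ∈ 𝓑, a • B ∈ 𝓑
  cover : ∀ y : X, (∃ s : G, dist y (s • x₀) ≤ R₀) ∨ ∃ B ∈ 𝓑, y ∈ B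
  sep_pos : 2 * μ < σ
  sep : ∀ B ∈ 𝓑, ∀ B' ∈ 𝓑, B ≠ B' → ∀ x ∈ B, ∀ y ∈ B', σ ≤ dist x y
  qconv : ∀ B ∈ 𝓑, ∀ p ∈ B, ∀ r ∈ B, ∀ m : X, dist p m ≤ dist p r / 2 + μ →
    dist r m ≤ dist p r / 2 + μ → ∃ b ∈ B, dist m b ≤ κ
  locfin : ∀ R : ℝ, {B ∈ 𝓑 | ∃ b ∈ B, dist x₀ b ≤ R}.Finite
  bddint : ∀ B ∈ 𝓑, ∀ B' ∈ 𝓑, B ≠ B' → ∀ R : ℝ, ∃ D : ℝ, ∀ x y : X,
    (∃ b ∈ B, dist x b ≤ R) → (∃ b ∈ B', dist x b ≤ R) →
    (∃ b ∈ B, dist y b ≤ R) → (∃ b ∈ B', dist y b ≤ R) → dist x y ≤ D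

end Vale.Agent.P184
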