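import Vale.Agent.P184.Height
import Vale.Agent.P184.RH.Defs

namespace Vale.Agent.P184

theorem HasHeight.van {G : Type*} [Group G] {g : G} (H : HasHeight g) : Van g := by
  obtain ⟨h, hb, hz, hg⟩ := H
  intro q e he
  exact height_criterion he g h hb hz hg

theorem HasHeight.comap {Γ G : Type*} [Group Γ] [Group G] (π : Γ →* G) {γ : Γ}
    (H : HasHeight (π γ)) : HasHeight γ := by
  obtain ⟨h, hb, hz, hg⟩ := H
  refine ⟨fun u => h (π u), ?_, ?_, ?_⟩
  · intro x
    obtain ⟨M, hM⟩ := hb (π x)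
    refine ⟨M, fun u => ?_⟩
    have := hM (π u)
    simpa [map_mul] using this
  · intro z hzc u v
    have h1 : π z * π γ = π γ * π z := by rw [← map_mul, ← map_mul, hzc]
    have := hz (π z) h1 (π u) (π v)
    simpa [map_mul] using this
  · simpa using hg

theorem HasHeight.conj {G : Type*} [Group G] {g : G} (H : HasHeight g) (s : G) :
    HasHeight (s * g * s⁻¹) := by
  refine HasHeight.comap (MulAut.conj s⁻¹).toMonoidHom ?_
  have : (MulAut.conj s⁻¹).toMonoidHom (s * g * s⁻¹) = g := by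
    simp
    group
  rw [this]
  exact H

theorem HasHeight.transfer {G : Type*} [Group G] (A : Subgroup G) (p : G → A)
    (hp : ∀ (x : G) (k : A), p (x * k) = p x * k)
    (hfin : ∀ g : G, {c : A | ∃ x, p (g * x) = c * p x}.Finite)
    (a : A) (hcent : ∀ z : G, z * a = a * z → z ∈ A) (H : HasHeight a) :
    HasHeight (a : G) := by
  obtain ⟨h, hb, hz, hg⟩ := H
  choose M hM using hb
  refine ⟨fun u => h (p u), ?_, ?_, ?_⟩
  · intro x
    obtain ⟨K, hK⟩ := ((hfin x).image M).bddAbove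
    refine ⟨K, fun u => ?_⟩
    have hc : p (x * u) * (p u)⁻¹ ∈ {c : A | ∃ y, p (x * y) = c * p y} := ⟨u, by group⟩
    have h1 := hM (p (x * u) * (p u)⁻¹) (p u)
    have h2 : M (p (x * u) * (p u)⁻¹) ≤ K := hK ⟨_, hc, rfl⟩
    have h3 : p (x * u) * (p u)⁻¹ * p u = p (x * u) := by group
    rw [h3] at h1
    exact h1.trans h2
  · intro z hzc u v
    have hzA := hcent z hzc
    have h1 : (⟨z, hzA⟩ : A) * a = a * ⟨z, hzA⟩ := Subtype.ext hzc
    have h2 := hz ⟨z, hzA⟩ h1 (p u) (p v)
    have e1 := hp u ⟨z, hzA⟩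
    have e2 := hp v ⟨z, hzA⟩
    simp only at e1 e2
    change h (p (u * z)) - h (p u) = h (p (v * z)) - h (p v)
    rw [e1, e2]
    exact h2
  · have e1 := hp 1 a
    rw [one_mul] at e1
    change h (p (a : G)) ≠ h (p 1)
    rw [e1]
    have h2 := hz a rfl (p 1) 1
    rw [one_mul] at h2
    intro h3
    apply hg
    linarith

end Vale.Agent.P184
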