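import Vale.Agent.P184.RH.Main
import Vale.Agent.P184.HH.Classes
import Vale.Agent.P184.HH.Hyp

namespace Vale.Agent.P184

open scoped Pointwise

variable {G X : Type*} [Group G] [PseudoMetricSpace X] [MulAction G X]
  {𝓑 : Set (Set X)} {δ μ σ κ R₀ : ℝ} {x₀ : X}

lemma subgroup_fin_iff {H : Type*} [Group H] {A : Subgroup H} {x : A} :
    IsOfFinOrder (x : H) ↔ IsOfFinOrder x :=
  Submonoid.isOfFinOrder_coe (H := A.toSubmonoid) (x := x)

/-- Height functions for all elements of infinite order of a relatively hyperbolic group. -/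
theorem CuspUniform.allHeight (hC : CuspUniform G X 𝓑 δ μ σ κ R₀ x₀)
    (hper : ∀ B ∈ 𝓑, AllHeight (MulAction.stabilizer G B)) : AllHeight G := by
  intro g hg
  obtain ⟨S, hS⟩ := hC.trichotomy
  rcases hS g with ⟨ε, hε, hlox⟩ | ⟨hfin, _⟩ | ⟨B, hB, hne, hgB⟩
  · exact HH.lox_criterion hC.isom hC.hyp g x₀ ε hε hlox
      (fun R => (hC.proper R).subset (fun s hs => hs.2))
  · exact absurd hfin hg
  · have hmem : g ∈ MulAction.stabilizer G B := MulAction.mem_stabilizer_iff.mpr hgB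
    have hinf : ¬ IsOfFinOrder (⟨g, hmem⟩ : MulAction.stabilizer G B) :=
      fun hf => hg (subgroup_fin_iff.mpr hf)
    exact hC.parabolic_height hB hne ⟨g, hmem⟩ hinf (hper B hB _ hinf)

/-- Finiteness of the number of classes of elements of finite order. -/
theorem CuspUniform.finTor (hC : CuspUniform G X 𝓑 δ μ σ κ R₀ x₀)
    (htor : ∀ B ∈ 𝓑, FinTor (MulAction.stabilizer G B)) : FinTor G := by
  classical
  obtain ⟨S, hS⟩ := hC.trichotomy
  let 𝓕 : Set (Set X) := {B ∈ 𝓑 | ∃ b ∈ B, dist x₀ b ≤ |R₀| + σ}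
  have h𝓕fin : 𝓕.Finite := hC.locfin _
  let T1 : Set (ConjClasses G) := ConjClasses.mk '' {s : G | s ∈ S ∧ IsOfFinOrder s}
  let T2 : Set (ConjClasses G) :=
    ⋃ B ∈ 𝓕, (ConjClasses.map (MulAction.stabilizer G B).subtype) ''
      {C : ConjClasses (MulAction.stabilizer G B) | ∀ h ∈ C.carrier, IsOfFinOrder h}
  have hT1 : T1.Finite := (S.finite_toSet.subset (fun s hs => hs.1)).image _
  have hT2 : T2.Finite := h𝓕fin.biUnion (fun B hB => (htor B hB.1).image _)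
  refine (hT1.union hT2).subset ?_
  intro C hCt
  obtain ⟨g, rfl⟩ := ConjClasses.mk_surjective C
  have hgf : IsOfFinOrder g := hCt g ConjClasses.mem_carrier_mk
  rcases hS g with ⟨ε, hε, hlox⟩ | ⟨_, s, hs⟩ | ⟨B, hB, hne, hgB⟩
  · exfalso
    obtain ⟨k, hk, hk1⟩ := (isOfFinOrder_iff_pow_eq_one).mp hgf
    have := hlox k
    rw [hk1, one_smul, dist_self] at this
    have hk' : (0 : ℝ) < k := by exact_mod_cast hk
    nlinarith
  · left
    have hconj : IsConj (s⁻¹ * g * s) g := isConj_iff.mpr ⟨s, by group⟩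
    exact ⟨s⁻¹ * g * s, ⟨hs, isOfFinOrder_of_isConj hconj.symm hgf⟩,
      ConjClasses.mk_eq_mk_iff_isConj.mpr hconj⟩
  · right
    obtain ⟨s, b, hb, hd⟩ := hC.orbit_near hB hne
    have hB₁ : s⁻¹ • B ∈ 𝓑 := hC.inv s⁻¹ B hB
    have hB₁F : s⁻¹ • B ∈ 𝓕 := by
      refine ⟨hB₁, s⁻¹ • b, Set.smul_mem_smul_set hb, ?_⟩
      have h1 := hC.isom s⁻¹ (s • x₀) b
      rw [inv_smul_smul] at h1
      rw [h1]
      exact hd
    have hg₁ : s⁻¹ * g * s ∈ MulAction.stabilizer G (s⁻¹ • B) := by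
      rw [MulAction.mem_stabilizer_iff, smul_smul, mul_inv_cancel_right, mul_smul, hgB]
    have hconj : IsConj (s⁻¹ * g * s) g := isConj_iff.mpr ⟨s, by group⟩
    have hfin₁ : IsOfFinOrder (s⁻¹ * g * s) := isOfFinOrder_of_isConj hconj.symm hgf
    simp only [T2, Set.mem_iUnion]
    refine ⟨s⁻¹ • B, hB₁F, ConjClasses.mk ⟨s⁻¹ * g * s, hg₁⟩, ?_, ?_⟩
    · intro h hh
      rw [ConjClasses.mem_carrier_iff_mk_eq] at hh
      have h2 : IsOfFinOrder (⟨s⁻¹ * g * s, hg₁⟩ : MulAction.stabilizer G (s⁻¹ • B)) :=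
        subgroup_fin_iff.mp hfin₁
      exact isOfFinOrder_of_isConj (ConjClasses.mk_eq_mk_iff_isConj.mp hh.symm) h2
    · exact ConjClasses.mk_eq_mk_iff_isConj.mpr hconj

end Vale.Agent.P184
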