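import Vale.Agent.P184.RH.Proj

namespace Vale.Agent.P184

open scoped Pointwise

variable {G X : Type*} [Group G] [PseudoMetricSpace X] [MulAction G X]
  {𝓑 : Set (Set X)} {δ μ σ κ R₀ : ℝ} {x₀ : X}

/-- Projections of orbit points to members of the family stay close to the orbit. -/
lemma CuspUniform.proj_near_orbit (hC : CuspUniform G X 𝓑 δ μ σ κ R₀ x₀) :
    ∃ R₂ : ℝ, ∀ B ∈ 𝓑, ∀ (a : G) (p : X), IsProj B (a • x₀) p →
      ∃ s : G, dist p (s • x₀) ≤ R₂ := by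
  obtain ⟨R, hR⟩ := hC.deep_ball (2 * μ + 4 * δ + 3)
  refine ⟨max R (2 * μ + 4 * δ + 3), ?_⟩
  intro B hB a p hp
  obtain ⟨w, hw1, hw2⟩ := hC.exit_point hp
  rcases hw2 with rfl | hw2
  · exact ⟨a, hw1.trans (le_max_right _ _)⟩
  · by_contra hcon
    push Not at hcon
    obtain ⟨B', hB', hball⟩ := hR p (fun s => lt_of_le_of_lt (le_max_left _ _) (hcon s))
    have hσ : 0 < σ := by
      have := hC.mu_nonneg
      have := hC.sep_pos
      linarith
    have hT : 0 ≤ 2 * μ + 4 * δ + 3 := by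
      have := hC.mu_nonneg
      have := hC.delta_nonneg
      linarith
    have hpB' : p ∈ B' := hball p (by rw [dist_self]; exact hT)
    have hBB : B = B' := hC.eq_of_mem hB hB' hp.1 hpB' (by rw [dist_self]; exact hσ)
    exact hw2 (hBB ▸ hball w hw1)

/-- The orbit points close to `B` are close to the orbit of the stabilizer of `B`. -/
lemma CuspUniform.stab_cobounded (hC : CuspUniform G X 𝓑 δ μ σ κ R₀ x₀) {B : Set X} (hB : B ∈ 𝓑)
    (R : ℝ) : ∃ R' : ℝ, ∀ s : G, (∃ b ∈ B, dist (s • x₀) b ≤ R) →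
      ∃ k ∈ MulAction.stabilizer G B, dist (s • x₀) (k • x₀) ≤ R' := by
  classical
  have hfin := hC.locfin R
  let t : Set X → G := fun B' => if h : ∃ t : G, t⁻¹ • B = B' then h.choose else 1
  have ht : ∀ B', (∃ t : G, t⁻¹ • B = B') → (t B')⁻¹ • B = B' := by
    intro B' h
    have : t B' = h.choose := dif_pos h
    rw [this]
    exact h.choose_spec
  obtain ⟨R', hR'⟩ := (hfin.image (fun B' => dist x₀ ((t B') • x₀))).bddAbove
  refine ⟨R', ?_⟩
  rintro s ⟨b, hb, hsb⟩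
  have hmem : s⁻¹ • B ∈ {B' ∈ 𝓑 | ∃ b ∈ B', dist x₀ b ≤ R} := by
    refine ⟨hC.inv s⁻¹ B hB, s⁻¹ • b, Set.smul_mem_smul_set hb, ?_⟩
    have h1 := hC.isom s⁻¹ (s • x₀) b
    rw [inv_smul_smul] at h1
    rw [h1]
    exact hsb
  have h2 : (t (s⁻¹ • B))⁻¹ • B = s⁻¹ • B := ht _ ⟨s, rfl⟩
  refine ⟨s * (t (s⁻¹ • B))⁻¹, ?_, ?_⟩
  · rw [MulAction.mem_stabilizer_iff, mul_smul, h2, smul_inv_smul]
  · rw [mul_smul, hC.isom]
    have h3 := hC.isom (t (s⁻¹ • B)) x₀ ((t (s⁻¹ • B))⁻¹ • x₀)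
    rw [smul_inv_smul] at h3
    rw [← h3, dist_comm]
    exact hR' ⟨s⁻¹ • B, hmem, rfl⟩

end Vale.Agent.P184
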