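import Vale.Agent.P184.RH.Defs

namespace Vale.Agent.P184

open scoped Pointwise

variable {G X : Type*} [Group G] [PseudoMetricSpace X] [MulAction G X]
  {𝓑 : Set (Set X)} {δ μ σ κ R₀ : ℝ} {x₀ : X}

/-- apply `mid` to `x₀ x₀` and the triangle inequality -/
lemma CuspUniform.mu_nonneg (hC : CuspUniform G X 𝓑 δ μ σ κ R₀ x₀) : 0 ≤ μ := by
  obtain ⟨m, h1, -⟩ := hC.mid x₀ x₀
  have h0 : 0 ≤ dist x₀ m := dist_nonneg
  rw [dist_self] at h1
  linarith

/-- apply `hyp` to `x₀ x₀ x₀ x₀` -/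
lemma CuspUniform.delta_nonneg (hC : CuspUniform G X 𝓑 δ μ σ κ R₀ x₀) : 0 ≤ δ := by
  have h := hC.hyp x₀ x₀ x₀ x₀
  simp only [dist_self, add_zero, max_self, zero_add] at h
  linarith

lemma CuspUniform.eq_of_mem (hC : CuspUniform G X 𝓑 δ μ σ κ R₀ x₀) {B B' : Set X}
    (hB : B ∈ 𝓑) (hB' : B' ∈ 𝓑) {x y : X} (hx : x ∈ B) (hy : y ∈ B') (hxy : dist x y < σ) :
    B = B' := by
  by_contra hne
  have := hC.sep B hB B' hB' hne x hx y hy
  linarith

/-- Coarse connectivity: a set closed under steps of length `≤ r` with `2 μ < r` which contains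
one point contains all points.  Induction on `n` for pairs at distance `≤ 2 μ + 2 ^ n (r - 2 μ)`,
using an approximate midpoint. -/
lemma CuspUniform.connected (hC : CuspUniform G X 𝓑 δ μ σ κ R₀ x₀) {r : ℝ} (hr : 2 * μ < r)
    (S : Set X) (hS : ∀ x ∈ S, ∀ y, dist x y ≤ r → y ∈ S) {x : X} (hx : x ∈ S) (y : X) :
    y ∈ S := by
  have hη : 0 < r - 2 * μ := by linarith
  have key : ∀ n : ℕ, ∀ x ∈ S, ∀ y, dist x y ≤ 2 * μ + 2 ^ n * (r - 2 * μ) → y ∈ S := by
    intro n
    induction n with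
    | zero =>
      intro x hx y hxy
      apply hS x hx y
      simpa using hxy
    | succ n ih =>
      intro x hx y hxy
      obtain ⟨m, h1, h2⟩ := hC.mid x y
      have hp : (2 : ℝ) ^ (n + 1) = 2 * 2 ^ n := by rw [pow_succ]; ring
      rw [hp] at hxy
      have hm : m ∈ S := ih x hx m (by linarith)
      apply ih m hm y
      rw [dist_comm]
      linarith
  obtain ⟨n, hn⟩ := pow_unbounded_of_one_lt (dist x y / (r - 2 * μ)) (by norm_num : (1 : ℝ) < 2)
  apply key n x hx y
  have h1 : dist x y < 2 ^ n * (r - 2 * μ) := by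
    rwa [div_lt_iff₀ hη] at hn
  have := hC.mu_nonneg
  linarith

/-- Points far from the orbit have a large ball inside one member of the family. -/
lemma CuspUniform.deep_ball (hC : CuspUniform G X 𝓑 δ μ σ κ R₀ x₀) (K : ℝ) :
    ∃ R : ℝ, ∀ x : X, (∀ s : G, R < dist x (s • x₀)) → ∃ B ∈ 𝓑, ∀ y, dist x y ≤ K → y ∈ B := by
  have hμ := hC.mu_nonneg
  have hσ := hC.sep_pos
  set η : ℝ := (σ - 2 * μ) / 2 with hηdef
  have hη : 0 < η := by rw [hηdef]; linarith
  let r : ℕ → ℝ := fun n => 2 * μ + 2 ^ n * η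
  have hr0 : r 0 < σ := by
    change 2 * μ + 2 ^ 0 * η < σ
    rw [hηdef]
    simp only [pow_zero, one_mul]
    linarith
  have hrpos : ∀ n, 0 ≤ r n := by
    intro n
    change 0 ≤ 2 * μ + 2 ^ n * η
    positivity
  have hrsucc : ∀ n, r (n + 1) / 2 + μ = r n := by
    intro n
    change (2 * μ + 2 ^ (n + 1) * η) / 2 + μ = 2 * μ + 2 ^ n * η
    rw [pow_succ]
    ring
  have hrmono : ∀ n, r n ≤ r (n + 1) := by
    intro n
    change 2 * μ + 2 ^ n * η ≤ 2 * μ + 2 ^ (n + 1) * η
    rw [pow_succ]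
    have : 0 ≤ (2 : ℝ) ^ n * η := by positivity
    linarith
  have key : ∀ n : ℕ, ∀ B ∈ 𝓑, ∀ x ∈ B, ∀ y, dist x y ≤ r n →
      (∀ s : G, R₀ + ((n : ℝ) + 1) * r n < dist x (s • x₀)) → y ∈ B := by
    intro n
    induction n with
    | zero =>
      intro B hB x hx y hxy hdeep
      rcases hC.cover y with ⟨s, hs⟩ | ⟨B', hB', hy⟩
      · exfalso
        have h1 := hdeep s
        have h2 : dist x (s • x₀) ≤ dist x y + dist y (s • x₀) := dist_triangle _ _ _
        simp only [Nat.cast_zero, zero_add, one_mul] at h1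
        linarith
      · have : B = B' := hC.eq_of_mem hB hB' hx hy (lt_of_le_of_lt hxy hr0)
        rw [this]
        exact hy
    | succ n ih =>
      intro B hB x hx y hxy hdeep
      obtain ⟨m, h1, h2⟩ := hC.mid x y
      have e := hrsucc n
      have hmn := hrmono n
      have hp := hrpos n
      have hxm : dist x m ≤ r n := by linarith
      have hym : dist m y ≤ r n := by rw [dist_comm]; linarith
      have hn0 : (0 : ℝ) ≤ n := Nat.cast_nonneg n
      have hprod : ((n : ℝ) + 1) * r n ≤ ((n : ℝ) + 1) * r (n + 1) :=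
        mul_le_mul_of_nonneg_left hmn (by linarith)
      have hm : m ∈ B := by
        apply ih B hB x hx m hxm
        intro s
        have h3 := hdeep s
        push_cast at h3
        nlinarith [hrpos (n + 1)]
      apply ih B hB m hm y hym
      intro s
      have h3 := hdeep s
      push_cast at h3
      have h4 : dist x (s • x₀) ≤ dist x m + dist m (s • x₀) := dist_triangle _ _ _
      nlinarith [hrpos (n + 1)]
  obtain ⟨n, hn⟩ := pow_unbounded_of_one_lt (K / η) (by norm_num : (1 : ℝ) < 2)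
  have hK : K ≤ r n := by
    change K ≤ 2 * μ + 2 ^ n * η
    have h1 : K < 2 ^ n * η := by rwa [div_lt_iff₀ hη] at hn
    linarith
  refine ⟨R₀ + ((n : ℝ) + 1) * r n, ?_⟩
  intro x hx
  have hn0 : (0 : ℝ) ≤ n := Nat.cast_nonneg n
  have hnn : 0 ≤ ((n : ℝ) + 1) * r n := mul_nonneg (by linarith) (hrpos n)
  rcases hC.cover x with ⟨s, hs⟩ | ⟨B, hB, hxB⟩
  · exfalso
    have := hx s
    linarith
  · exact ⟨B, hB, fun y hy => key n B hB x hxB y (hy.trans hK) hx⟩

/-- Every nonempty member of the family comes close to the orbit. -/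
lemma CuspUniform.orbit_near (hC : CuspUniform G X 𝓑 δ μ σ κ R₀ x₀) {B : Set X} (hB : B ∈ 𝓑)
    (hne : B.Nonempty) : ∃ s : G, ∃ b ∈ B, dist (s • x₀) b ≤ |R₀| + σ := by
  have hμ := hC.mu_nonneg
  have hσ := hC.sep_pos
  set r : ℝ := (σ + 2 * μ) / 2 with hrdef
  have hr1 : 2 * μ < r := by rw [hrdef]; linarith
  have hr2 : r < σ := by rw [hrdef]; linarith
  by_cases hA : ∃ x ∈ B, ∃ y, y ∉ B ∧ dist x y ≤ r
  · obtain ⟨x, hx, y, hy, hxy⟩ := hA
    rcases hC.cover y with ⟨s, hs⟩ | ⟨B', hB', hyB'⟩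
    · refine ⟨s, x, hx, ?_⟩
      have h1 : dist (s • x₀) x ≤ dist (s • x₀) y + dist y x := dist_triangle _ _ _
      rw [dist_comm (s • x₀) y, dist_comm y x] at h1
      have := le_abs_self R₀
      linarith
    · exfalso
      have : B = B' := hC.eq_of_mem hB hB' hx hyB' (lt_of_le_of_lt hxy hr2)
      exact hy (this ▸ hyB')
  · push Not at hA
    obtain ⟨x, hx⟩ := hne
    have hx0 : x₀ ∈ B := by
      apply hC.connected hr1 B _ hx x₀
      intro x hx y hxy
      by_contra hy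
      have := hA x hx y hy
      linarith
    refine ⟨1, x₀, hx0, ?_⟩
    rw [one_smul, dist_self]
    have := abs_nonneg R₀
    linarith

end Vale.Agent.P184
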