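import Vale.Agent.P184.RH.Defs

namespace Vale.Agent.P184

/-- Every element of infinite order of `G` admits a height function. -/
def AllHeight (G : Type*) [Group G] : Prop := ∀ g : G, ¬ IsOfFinOrder g → HasHeight g

/-- `G` has only finitely many conjugacy classes consisting of elements of finite order. -/
def FinTor (G : Type*) [Group G] : Prop :=
  {C : ConjClasses G | ∀ g ∈ C.carrier, IsOfFinOrder g}.Finite

end Vale.Agent.P184
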