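import Vale.Agent.P184.RH.Cob

namespace Vale.Agent.P184

open scoped Pointwise

variable {G X : Type*} [Group G] [PseudoMetricSpace X] [MulAction G X]
  {𝓑 : Set (Set X)} {δ μ σ κ R₀ : ℝ} {x₀ : X}

/-- The equivariant coarse projection of `G` onto the stabilizer of a member of the family. -/
lemma CuspUniform.exists_equivariant_proj (hC : CuspUniform G X 𝓑 δ μ σ κ R₀ x₀) {B : Set X}
    (hB : B ∈ 𝓑) (hne : B.Nonempty) :
    ∃ p : G → MulAction.stabilizer G B,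
      (∀ (x : G) (k : MulAction.stabilizer G B), p (x * k) = p x * k) ∧
      ∀ g : G, {c : MulAction.stabilizer G B | ∃ x, p (g * x) = c * p x}.Finite := by
  classical
  obtain ⟨R₂, hR₂⟩ := hC.proj_near_orbit
  obtain ⟨R', hR'⟩ := hC.stab_cobounded hB R₂
  set A := MulAction.stabilizer G B with hA
  let N : G → A → Prop := fun x c =>
    ∃ pt, IsProj B (x⁻¹ • x₀) pt ∧ dist ((c : G)⁻¹ • x₀) pt ≤ R₂ + R'
  have h1 : ∀ x, ∃ c, N x c := by
    intro x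
    obtain ⟨pt, hpt⟩ := exists_isProj hne (x⁻¹ • x₀)
    obtain ⟨s, hs⟩ := hR₂ B hB x⁻¹ pt hpt
    obtain ⟨k, hk, hks⟩ := hR' s ⟨pt, hpt.1, by rw [dist_comm]; exact hs⟩
    refine ⟨(⟨k, hk⟩ : A)⁻¹, pt, hpt, ?_⟩
    have e : (((⟨k, hk⟩ : A)⁻¹ : A) : G)⁻¹ = k := by simp
    rw [e]
    have := dist_triangle (k • x₀) (s • x₀) pt
    rw [dist_comm (k • x₀) (s • x₀), dist_comm (s • x₀) pt] at this
    linarith
  have h2 : ∀ x c (k : A), N x c → N (x * k) (c * k) := by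
    rintro x c k ⟨pt, hpt, hd⟩
    refine ⟨(k : G)⁻¹ • pt, ?_, ?_⟩
    · have := IsProj.smul hC.isom hpt (k : G)⁻¹
      have hk : (k : G)⁻¹ • B = B := by
        have : (k : G)⁻¹ ∈ A := A.inv_mem k.2
        exact MulAction.mem_stabilizer_iff.mp this
      rw [hk] at this
      rwa [mul_inv_rev, mul_smul]
    · have e : (((c * k : A) : G))⁻¹ • x₀ = (k : G)⁻¹ • ((c : G)⁻¹ • x₀) := by
        rw [Subgroup.coe_mul, mul_inv_rev, mul_smul]
      rw [e, hC.isom]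
      exact hd
  have h3 : ∀ g x c c', N x c → N (g * x) c' →
      dist x₀ (((c : G) * (c' : G)⁻¹) • x₀) ≤ 2 * (R₂ + R') + (2 * dist x₀ (g⁻¹ • x₀)
        + 2 * (μ + 2 * δ + κ + 1) + 2 * δ) := by
    rintro g x c c' ⟨pt, hpt, hd⟩ ⟨pt', hpt', hd'⟩
    have hl := hC.proj_lipschitz hB hpt hpt'
    have e1 : dist (x⁻¹ • x₀) ((g * x)⁻¹ • x₀) = dist x₀ (g⁻¹ • x₀) := by
      rw [mul_inv_rev, mul_smul, hC.isom]
    rw [e1] at hl
    have e2 : dist x₀ (((c : G) * (c' : G)⁻¹) • x₀) = dist ((c : G)⁻¹ • x₀) ((c' : G)⁻¹ • x₀) := by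
      rw [← hC.isom (c : G) ((c : G)⁻¹ • x₀), smul_inv_smul, mul_smul]
    rw [e2]
    have t1 := dist_triangle ((c : G)⁻¹ • x₀) pt ((c' : G)⁻¹ • x₀)
    have t2 := dist_triangle pt pt' ((c' : G)⁻¹ • x₀)
    rw [dist_comm pt' ((c' : G)⁻¹ • x₀)] at t2
    linarith
  choose c₀ hc₀ using h1
  let r : G ⧸ A → G := Quotient.out
  have hr : ∀ u : G, (r (u : G ⧸ A))⁻¹ * u ∈ A := fun u =>
    QuotientGroup.eq.mp (QuotientGroup.out_eq' (u : G ⧸ A))
  let p : G → A := fun u => c₀ (r (u : G ⧸ A)) * ⟨(r (u : G ⧸ A))⁻¹ * u, hr u⟩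
  have hN : ∀ u, N u (p u) := by
    intro u
    have := h2 (r (u : G ⧸ A)) (c₀ (r (u : G ⧸ A))) ⟨(r (u : G ⧸ A))⁻¹ * u, hr u⟩ (hc₀ _)
    simpa [p] using this
  refine ⟨p, ?_, ?_⟩
  · intro x k
    have e : ((x * k : G) : G ⧸ A) = (x : G ⧸ A) := QuotientGroup.mk_mul_of_mem x k.2
    simp only [p]
    rw [mul_assoc]
    congr 1
    · rw [e]
    · apply Subtype.ext
      simp only [Subgroup.coe_mul]
      rw [e, mul_assoc]
  · intro g
    have hF := hC.proper (2 * (R₂ + R') + (2 * dist x₀ (g⁻¹ • x₀)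
        + 2 * (μ + 2 * δ + κ + 1) + 2 * δ))
    have hinj : Set.InjOn (fun c : A => ((c : G))⁻¹) Set.univ := by
      intro a _ b _ hab
      apply Subtype.ext
      exact inv_injective hab
    refine (hF.preimage (hinj.mono (Set.subset_univ _))).subset ?_
    rintro c ⟨x, hx⟩
    have := h3 g x (p x) (p (g * x)) (hN x) (hN (g * x))
    simp only [Set.mem_preimage, Set.mem_ofPred_eq]
    have e : ((c : G))⁻¹ = (p x : G) * (p (g * x) : G)⁻¹ := by
      rw [hx]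
      simp
    rw [e]
    exact this

end Vale.Agent.P184
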