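import Vale.Agent.P184.RH.Deep
import Vale.Agent.P184.HypGroup

namespace Vale.Agent.P184

open scoped Pointwise

variable {G X : Type*} [Group G] [PseudoMetricSpace X] [MulAction G X]
  {𝓑 : Set (Set X)} {δ μ σ κ R₀ : ℝ} {x₀ : X}

omit [PseudoMetricSpace X] in
private lemma pow_smul_set_eq {B : Set X} {h : G} (hh : h • B = B) (n : ℕ) : h ^ n • B = B := by
  induction n with
  | zero => simp
  | succ n ih => rw [pow_succ, mul_smul, hh, ih]

/-- The centralizer of an element of infinite order of the stabilizer of `B` stabilizes `B`. -/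
lemma CuspUniform.centralizer_le_stab (hC : CuspUniform G X 𝓑 δ μ σ κ R₀ x₀) {B : Set X}
    (hB : B ∈ 𝓑) {h : G} (hh : h • B = B) (hinf : ¬ IsOfFinOrder h) {z : G}
    (hz : z * h = h * z) : z • B = B := by
  rcases Set.eq_empty_or_nonempty B with hempty | ⟨b, hb⟩
  · rw [hempty, Set.smul_set_empty]
  by_contra hne
  have hB' : z • B ∈ 𝓑 := hC.inv z B hB
  have hh' : h • (z • B) = z • B := by
    rw [← mul_smul, ← hz, mul_smul, hh]
  have hb' : z • b ∈ z • B := Set.smul_mem_smul_set hb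
  obtain ⟨D, hD⟩ := hC.bddint B hB (z • B) hB' (fun e => hne e.symm) (dist b (z • b))
  have hbound : ∀ n : ℕ, dist x₀ (h ^ n • x₀) ≤ D + 2 * dist x₀ b := by
    intro n
    have h1 : h ^ n • b ∈ B := by
      have : h ^ n • b ∈ h ^ n • B := Set.smul_mem_smul_set hb
      rwa [pow_smul_set_eq hh n] at this
    have h2 : h ^ n • (z • b) ∈ z • B := by
      have : h ^ n • (z • b) ∈ h ^ n • (z • B) := Set.smul_mem_smul_set hb'
      rwa [pow_smul_set_eq hh' n] at this
    have h3 : dist b (h ^ n • b) ≤ D := by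
      apply hD b (h ^ n • b)
      · exact ⟨b, hb, by rw [dist_self]; exact dist_nonneg⟩
      · exact ⟨z • b, hb', le_refl _⟩
      · exact ⟨h ^ n • b, h1, by rw [dist_self]; exact dist_nonneg⟩
      · exact ⟨h ^ n • (z • b), h2, by rw [hC.isom]⟩
    have h4 := dist_triangle4 x₀ b (h ^ n • b) (h ^ n • x₀)
    have h5 : dist (h ^ n • b) (h ^ n • x₀) = dist b x₀ := hC.isom _ _ _
    rw [h5, dist_comm b x₀] at h4
    linarith
  have hinj : Function.Injective (fun n : ℕ => h ^ n) :=
    injective_pow_iff_not_isOfFinOrder.mpr hinf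
  have hinfinite : {s : G | dist x₀ (s • x₀) ≤ D + 2 * dist x₀ b}.Infinite :=
    Set.infinite_of_injective_forall_mem hinj (fun n => hbound n)
  exact hinfinite (hC.proper _)

/-- Every element is loxodromic, or of finite order and conjugate into a fixed finite set, or
stabilizes a member of the family. -/
lemma CuspUniform.trichotomy (hC : CuspUniform G X 𝓑 δ μ σ κ R₀ x₀) :
    ∃ S : Finset G, ∀ g : G,
      (∃ ε : ℝ, 0 < ε ∧ ∀ n : ℕ, ε * n ≤ dist x₀ (g ^ n • x₀)) ∨
      (IsOfFinOrder g ∧ ∃ s : G, s⁻¹ * g * s ∈ S) ∨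
      (∃ B ∈ 𝓑, B.Nonempty ∧ g • B = B) := by
  classical
  have hμ := hC.mu_nonneg
  have hδ := hC.delta_nonneg
  have hσ := hC.sep_pos
  have hiso := hC.isom
  obtain ⟨R, hR⟩ := hC.deep_ball (4 + 2 * μ + 4 * δ)
  have hfin := hC.proper (2 * R + (4 + 2 * μ + 4 * δ))
  let S₀ : Finset G := hfin.toFinset
  have hS₀ : ∀ s, s ∈ S₀ ↔ dist x₀ (s • x₀) ≤ 2 * R + (4 + 2 * μ + 4 * δ) := by
    intro s
    simp [S₀]
  refine ⟨S₀, ?_⟩
  intro g
  by_cases hd : ∃ N : ℕ, dist x₀ (g ^ N • x₀) + 3 * δ < dist x₀ (g ^ (2 * N) • x₀)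
  · left
    obtain ⟨N, hN⟩ := hd
    exact lox_of_doubling hiso hC.hyp g x₀ N hN
  right
  push Not at hd
  let N : ℕ := S₀.card + 1
  obtain ⟨x, hx⟩ := non_lox_bounded hiso hC.hyp μ hC.mid g x₀ hd N
  by_cases hthick : ∃ s : G, dist x (s • x₀) ≤ R
  · left
    obtain ⟨s, hs⟩ := hthick
    let g' : G := s⁻¹ * g * s
    have hpow : ∀ j : ℕ, g' ^ j = s⁻¹ * g ^ j * s := by
      intro j
      have : g' = s⁻¹ * g * s⁻¹⁻¹ := by simp [g']
      rw [this, conj_pow, inv_inv]
    have hmem : ∀ j : ℕ, j ≤ N → g' ^ j ∈ S₀ := by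
      intro j hj
      rw [hS₀, hpow j]
      have h1 : dist x₀ ((s⁻¹ * g ^ j * s) • x₀) = dist (s • x₀) (g ^ j • (s • x₀)) := by
        have := hiso s x₀ ((s⁻¹ * g ^ j * s) • x₀)
        rw [← this, ← mul_smul, ← mul_smul]
        congr 2
        group
      rw [h1]
      have h2 := dist_triangle4 (s • x₀) x (g ^ j • x) (g ^ j • (s • x₀))
      have h3 : dist (g ^ j • x) (g ^ j • (s • x₀)) = dist x (s • x₀) := hiso _ _ _
      have h4 := hx j hj
      rw [dist_comm (s • x₀) x, h3] at h2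
      linarith
    refine ⟨?_, s, by simpa using hmem 1 (by simp [N])⟩
    have hcard : S₀.card < (Finset.range (N + 1)).card := by
      simp [N]
    obtain ⟨i, hi, j, hj, hij, heq⟩ := Finset.exists_ne_map_eq_of_card_lt_of_maps_to hcard
      (f := fun j => g' ^ j) (fun j hj => hmem j (by
        have := Finset.mem_range.mp hj
        omega))
    have hfo' : IsOfFinOrder g' := by
      rw [isOfFinOrder_iff_pow_eq_one]
      rcases lt_or_gt_of_ne hij with h | h
      · refine ⟨j - i, by omega, ?_⟩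
        have h1 : g' ^ j = g' ^ i * g' ^ (j - i) := by rw [← pow_add]; congr 1; omega
        have heq' : g' ^ i = g' ^ j := heq
        rw [h1] at heq'
        exact (mul_eq_left.mp heq'.symm)
      · refine ⟨i - j, by omega, ?_⟩
        have h1 : g' ^ i = g' ^ j * g' ^ (i - j) := by rw [← pow_add]; congr 1; omega
        have heq' : g' ^ i = g' ^ j := heq
        rw [h1] at heq'
        exact (mul_eq_left.mp heq')
    obtain ⟨n, hn, hn1⟩ := (isOfFinOrder_iff_pow_eq_one).mp hfo'
    rw [isOfFinOrder_iff_pow_eq_one]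
    refine ⟨n, hn, ?_⟩
    rw [hpow n] at hn1
    have : g ^ n = s * (s⁻¹ * g ^ n * s) * s⁻¹ := by group
    rw [this, hn1]
    group
  · right
    push Not at hthick
    obtain ⟨B, hB, hball⟩ := hR x hthick
    have hxB : x ∈ B := hball x (by rw [dist_self]; linarith)
    have hgx : g • x ∈ B := by
      apply hball
      have := hx 1 (by simp [N])
      simpa using this
    have hgx' : g • x ∈ g • B := Set.smul_mem_smul_set hxB
    refine ⟨B, hB, ⟨x, hxB⟩, ?_⟩
    exact hC.eq_of_mem (hC.inv g B hB) hB hgx' hgx (by rw [dist_self]; linarith)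

end Vale.Agent.P184
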