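import Vale.Agent.P184.RH.Height
import Vale.Agent.P184.RH.Equiv
import Vale.Agent.P184.RH.Tri

namespace Vale.Agent.P184

open scoped Pointwise

variable {G X : Type*} [Group G] [PseudoMetricSpace X] [MulAction G X]
  {𝓑 : Set (Set X)} {δ μ σ κ R₀ : ℝ} {x₀ : X}

private lemma sub_fin_iff {H : Type*} [Group H] {A : Subgroup H} {x : A} :
    IsOfFinOrder (x : H) ↔ IsOfFinOrder x :=
  Submonoid.isOfFinOrder_coe (H := A.toSubmonoid) (x := x)

private lemma isOfFinOrder_of_isConj {H : Type*} [Group H] {a b : H} (h : IsConj a b)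
    (ha : IsOfFinOrder a) : IsOfFinOrder b := by
  obtain ⟨c, hc⟩ := isConj_iff.mp h
  rw [← hc]
  have := (MulAut.conj c).toMonoidHom.isOfFinOrder ha
  simpa using this

/-- Height functions pass from the stabilizer of a member of the family to `G`
(`HasHeight.transfer`, `exists_equivariant_proj`, `centralizer_le_stab`). -/
theorem CuspUniform.parabolic_height (hC : CuspUniform G X 𝓑 δ μ σ κ R₀ x₀) {B : Set X}
    (hB : B ∈ 𝓑) (hne : B.Nonempty) (h : MulAction.stabilizer G B) (hinf : ¬ IsOfFinOrder h)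
    (H : HasHeight h) : HasHeight (h : G) := by
  obtain ⟨p, hp, hfin⟩ := hC.exists_equivariant_proj hB hne
  refine HasHeight.transfer (MulAction.stabilizer G B) p hp hfin h ?_ H
  intro z hz
  rw [MulAction.mem_stabilizer_iff]
  have hh : (h : G) • B = B := MulAction.mem_stabilizer_iff.mp h.2
  have hinf' : ¬ IsOfFinOrder (h : G) := fun hf => hinf (sub_fin_iff.mp hf)
  exact hC.centralizer_le_stab hB hh hinf' hz

/-- Vanishing at all classes of elements of infinite order. -/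
theorem CuspUniform.van (hC : CuspUniform G X 𝓑 δ μ σ κ R₀ x₀)
    (hper : ∀ B ∈ 𝓑, ∀ h : MulAction.stabilizer G B, ¬ IsOfFinOrder h → HasHeight h)
    (g : G) (hg : ¬ IsOfFinOrder g) : Van g := by
  obtain ⟨S, hS⟩ := hC.trichotomy
  rcases hS g with ⟨ε, hε, hlox⟩ | ⟨hfin, _⟩ | ⟨B, hB, hne, hgB⟩
  · intro q e he
    exact lox_criterion he hC.isom hC.hyp g x₀ ε hε hlox
      (fun R => (hC.proper R).subset (fun s hs => hs.2))
  · exact absurd hfin hg
  · have hmem : g ∈ MulAction.stabilizer G B := MulAction.mem_stabilizer_iff.mpr hgB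
    have hinf : ¬ IsOfFinOrder (⟨g, hmem⟩ : MulAction.stabilizer G B) :=
      fun hf => hg (sub_fin_iff.mpr hf)
    exact (hC.parabolic_height hB hne ⟨g, hmem⟩ hinf (hper B hB _ hinf)).van

/-- The conjecture for relatively hyperbolic groups. -/
theorem CuspUniform.Q1 (hC : CuspUniform G X 𝓑 δ μ σ κ R₀ x₀)
    (hper : ∀ B ∈ 𝓑, ∀ h : MulAction.stabilizer G B, ¬ IsOfFinOrder h → HasHeight h)
    (htor : ∀ B ∈ 𝓑, {C : ConjClasses (MulAction.stabilizer G B) |
      ∀ h ∈ C.carrier, IsOfFinOrder h}.Finite) : Q1 G := by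
  classical
  intro q e he
  obtain ⟨S, hS⟩ := hC.trichotomy
  let 𝓕 : Set (Set X) := {B ∈ 𝓑 | ∃ b ∈ B, dist x₀ b ≤ |R₀| + σ}
  have h𝓕fin : 𝓕.Finite := hC.locfin _
  let T1 : Set (ConjClasses G) := ConjClasses.mk '' {s : G | s ∈ S ∧ IsOfFinOrder s}
  let T2 : Set (ConjClasses G) :=
    ⋃ B ∈ 𝓕, (ConjClasses.map (MulAction.stabilizer G B).subtype) ''
      {C : ConjClasses (MulAction.stabilizer G B) | ∀ h ∈ C.carrier, IsOfFinOrder h}
  have hT1 : T1.Finite := (S.finite_toSet.subset (fun s hs => hs.1)).image _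
  have hT2 : T2.Finite := h𝓕fin.biUnion (fun B hB => (htor B hB.1).image _)
  refine ⟨(hT1.union hT2).toFinset, ?_, ?_⟩
  · intro C hCm g hg
    rw [Set.Finite.mem_toFinset] at hCm
    rw [ConjClasses.mem_carrier_iff_mk_eq] at hg
    rcases hCm with ⟨s, ⟨_, hs⟩, rfl⟩ | hCm
    · exact isOfFinOrder_of_isConj (ConjClasses.mk_eq_mk_iff_isConj.mp hg.symm) hs
    · simp only [T2, Set.mem_iUnion] at hCm
      obtain ⟨B, hB, C', hC', rfl⟩ := hCm
      obtain ⟨h, rfl⟩ := ConjClasses.mk_surjective C'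
      have hh : IsOfFinOrder h := hC' h ConjClasses.mem_carrier_mk
      have hh' : IsOfFinOrder (h : G) := sub_fin_iff.mpr hh
      have hg' : ConjClasses.mk g = ConjClasses.mk (h : G) := hg
      exact isOfFinOrder_of_isConj (ConjClasses.mk_eq_mk_iff_isConj.mp hg'.symm) hh'
  · intro C hCn
    obtain ⟨g, rfl⟩ := ConjClasses.mk_surjective C
    by_cases hgf : IsOfFinOrder g
    swap
    · exact hC.van hper g hgf q e he
    rw [Set.Finite.mem_toFinset] at hCn
    rcases hS g with ⟨ε, hε, hlox⟩ | ⟨_, s, hs⟩ | ⟨B, hB, hne, hgB⟩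
    · exact lox_criterion he hC.isom hC.hyp g x₀ ε hε hlox
        (fun R => (hC.proper R).subset (fun s hs => hs.2))
    · exfalso
      apply hCn
      left
      have hconj : IsConj (s⁻¹ * g * s) g := isConj_iff.mpr ⟨s, by group⟩
      exact ⟨s⁻¹ * g * s, ⟨hs, isOfFinOrder_of_isConj hconj.symm hgf⟩,
        ConjClasses.mk_eq_mk_iff_isConj.mpr hconj⟩
    · exfalso
      apply hCn
      right
      obtain ⟨s, b, hb, hd⟩ := hC.orbit_near hB hne
      have hB₁ : s⁻¹ • B ∈ 𝓑 := hC.inv s⁻¹ B hB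
      have hB₁F : s⁻¹ • B ∈ 𝓕 := by
        refine ⟨hB₁, s⁻¹ • b, Set.smul_mem_smul_set hb, ?_⟩
        have h1 := hC.isom s⁻¹ (s • x₀) b
        rw [inv_smul_smul] at h1
        rw [h1]
        exact hd
      have hg₁ : s⁻¹ * g * s ∈ MulAction.stabilizer G (s⁻¹ • B) := by
        rw [MulAction.mem_stabilizer_iff, smul_smul, mul_inv_cancel_right, mul_smul, hgB]
      have hconj : IsConj (s⁻¹ * g * s) g := isConj_iff.mpr ⟨s, by group⟩
      have hfin₁ : IsOfFinOrder (s⁻¹ * g * s) := isOfFinOrder_of_isConj hconj.symm hgf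
      simp only [T2, Set.mem_iUnion]
      refine ⟨s⁻¹ • B, hB₁F, ConjClasses.mk ⟨s⁻¹ * g * s, hg₁⟩, ?_, ?_⟩
      · intro h hh
        rw [ConjClasses.mem_carrier_iff_mk_eq] at hh
        have h2 : IsOfFinOrder (⟨s⁻¹ * g * s, hg₁⟩ : MulAction.stabilizer G (s⁻¹ • B)) :=
          sub_fin_iff.mp hfin₁
        exact isOfFinOrder_of_isConj (ConjClasses.mk_eq_mk_iff_isConj.mp hh.symm) h2
      · exact ConjClasses.mk_eq_mk_iff_isConj.mpr hconj

end Vale.Agent.P184
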