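import Vale.Agent.P184.RH.Deep

namespace Vale.Agent.P184

open scoped Pointwise

variable {G X : Type*} [Group G] [PseudoMetricSpace X] [MulAction G X]
  {𝓑 : Set (Set X)} {δ μ σ κ R₀ : ℝ} {x₀ : X}

/-- `p` is an almost closest point of `B` to `x`. -/
def IsProj (B : Set X) (x p : X) : Prop := p ∈ B ∧ ∀ b ∈ B, dist x p ≤ dist x b + 1

lemma exists_isProj {B : Set X} (hne : B.Nonempty) (x : X) : ∃ p, IsProj B x p := by
  have hne' : ((fun b => dist x b) '' B).Nonempty := hne.image _
  have hbdd : BddBelow ((fun b => dist x b) '' B) := by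
    refine ⟨0, ?_⟩
    rintro _ ⟨b, -, rfl⟩
    exact dist_nonneg
  obtain ⟨_, ⟨p, hp, rfl⟩, hlt⟩ :=
    exists_lt_of_csInf_lt hne' (lt_add_one (sInf ((fun b => dist x b) '' B)))
  refine ⟨p, hp, fun b hb => ?_⟩
  have h1 : sInf ((fun b => dist x b) '' B) ≤ dist x b := csInf_le hbdd ⟨b, hb, rfl⟩
  have h2 : dist x p < sInf ((fun b => dist x b) '' B) + 1 := hlt
  linarith

lemma IsProj.smul (hiso : ∀ (a : G) (x y : X), dist (a • x) (a • y) = dist x y) {B : Set X}
    {x p : X} (h : IsProj B x p) (a : G) : IsProj (a • B) (a • x) (a • p) := by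
  refine ⟨Set.smul_mem_smul_set h.1, ?_⟩
  rintro _ ⟨b, hb, rfl⟩
  change dist (a • x) (a • p) ≤ dist (a • x) (a • b) + 1
  rw [hiso, hiso]
  exact h.2 b hb

/-- Almost closest point projections to members of the family are coarsely Lipschitz. -/
lemma CuspUniform.proj_lipschitz (hC : CuspUniform G X 𝓑 δ μ σ κ R₀ x₀) {B : Set X} (hB : B ∈ 𝓑)
    {x y p r : X} (hp : IsProj B x p) (hr : IsProj B y r) :
    dist p r ≤ 2 * dist x y + 2 * (μ + 2 * δ + κ + 1) + 2 * δ := by
  have hδ := hC.delta_nonneg
  obtain ⟨m, hm1, hm2⟩ := hC.mid p r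
  obtain ⟨b, hb, hmb⟩ := hC.qconv B hB p hp.1 r hr.1 m hm1 hm2
  have hxy0 : 0 ≤ dist x y := dist_nonneg
  have hx1 := hC.hyp x m p r
  have hy1 := hC.hyp y m r p
  have hx2 : dist x p ≤ dist x m + κ + 1 := by
    have h1 := hp.2 b hb
    have h2 : dist x b ≤ dist x m + dist m b := dist_triangle _ _ _
    linarith
  have hy2 : dist y r ≤ dist y m + κ + 1 := by
    have h1 := hr.2 b hb
    have h2 : dist y b ≤ dist y m + dist m b := dist_triangle _ _ _
    linarith
  have e1 : dist m r = dist r m := dist_comm _ _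
  have e2 : dist m p = dist p m := dist_comm _ _
  have e3 : dist r p = dist p r := dist_comm _ _
  rw [e1, e2] at hx1
  rw [e1, e2, e3] at hy1
  by_cases hD : dist p r ≤ 2 * (μ + 2 * δ + κ + 1)
  · linarith
  · push Not at hD
    have hX : dist x p + dist p r / 2 ≤ dist x r + (μ + 2 * δ + κ + 1) := by
      rcases le_total (dist x p + dist r m) (dist x r + dist p m) with h | h
      · rw [max_eq_right h] at hx1
        linarith
      · rw [max_eq_left h] at hx1
        linarith
    have hY : dist y r + dist p r / 2 ≤ dist y p + (μ + 2 * δ + κ + 1) := by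
      rcases le_total (dist y r + dist p m) (dist y p + dist r m) with h | h
      · rw [max_eq_right h] at hy1
        linarith
      · rw [max_eq_left h] at hy1
        linarith
    have h3 := hC.hyp x r y p
    have e4 : dist r y = dist y r := dist_comm _ _
    rw [e3, e4] at h3
    rcases le_total (dist x y + dist p r) (dist x p + dist y r) with h | h
    · rw [max_eq_right h] at h3
      linarith
    · rw [max_eq_left h] at h3
      have h4 : dist p r ≤ dist p x + dist x y + dist y r := dist_triangle4 _ _ _ _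
      rw [dist_comm p x] at h4
      linarith

/-- Close to an almost closest point `p` of `B` to `y` there is `y` itself or a point outside of
`B`. -/
lemma CuspUniform.exit_point (hC : CuspUniform G X 𝓑 δ μ σ κ R₀ x₀) {B : Set X} {y p : X}
    (hp : IsProj B y p) : ∃ w, dist p w ≤ 2 * μ + 4 * δ + 3 ∧ (w = y ∨ w ∉ B) := by
  have hδ := hC.delta_nonneg
  have hμ := hC.mu_nonneg
  have hd0 : 0 ≤ dist y p := dist_nonneg
  have key : ∀ n : ℕ, ∀ m : X, (m = y ∨ dist y m < dist y p - 1) → dist p m ≤ 2 * μ + 2 ^ n →
      ∃ w, dist p w ≤ 2 * μ + 4 * δ + 3 ∧ (w = y ∨ dist y w < dist y p - 1) := by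
    intro n
    induction n with
    | zero =>
      intro m hm hpm
      refine ⟨m, ?_, hm⟩
      simp only [pow_zero] at hpm
      linarith
    | succ n ih =>
      intro m hm hpm
      by_cases hT : dist p m ≤ 2 * μ + 4 * δ + 3
      · exact ⟨m, hT, hm⟩
      · push Not at hT
        obtain ⟨m', h1, h2⟩ := hC.mid p m
        have hpow : (2 : ℝ) ^ (n + 1) = 2 * 2 ^ n := by rw [pow_succ]; ring
        rw [hpow] at hpm
        have hym : dist y m ≤ dist y p := by
          rcases hm with rfl | h
          · rw [dist_self]; exact hd0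
          · linarith
        apply ih m'
        · right
          have h3 := hC.hyp y m' p m
          rw [dist_comm m' m, dist_comm m' p] at h3
          rcases le_total (dist y p + dist m m') (dist y m + dist p m') with h | h
          · rw [max_eq_right h] at h3
            linarith
          · rw [max_eq_left h] at h3
            linarith
        · linarith
  obtain ⟨n, hn⟩ := pow_unbounded_of_one_lt (dist y p) (by norm_num : (1 : ℝ) < 2)
  obtain ⟨w, hw1, hw2⟩ := key n y (Or.inl rfl) (by rw [dist_comm]; linarith)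
  refine ⟨w, hw1, ?_⟩
  rcases hw2 with h | h
  · exact Or.inl h
  · right
    intro hwB
    have := hp.2 w hwB
    linarith

end Vale.Agent.P184
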